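import Vale.Agent.P220.R2.H57.B.Defs

/-!
# Groups of isometries that are infinitesimally transitive on a product of two spheres
-/

namespace Vale.Agent.P220.R2.H562

variable {E : Type} [NormedAddCommGroup E] [InnerProductSpace ℝ E]

/-- `φ` is a one-parameter group of linear isometries with infinitesimal generator `A`. -/
structure IsOnePar (φ : ℝ → (E ≃ₗᵢ[ℝ] E)) (A : E → E) : Prop where
  add : ∀ s t x, φ (s + t) x = φ s (φ t x)
  deriv : ∀ x, HasDerivAt (fun t => φ t x) (A x) 0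

/-- The velocities of the pair `(u, e)` under the one-parameter groups of isometries in `G`. -/
def Vel (G : Subgroup (E ≃ₗᵢ[ℝ] E)) (u e : E) : Set (E × E) :=
  {p | ∃ (φ : ℝ → (E ≃ₗᵢ[ℝ] E)) (A : E → E), IsOnePar φ A ∧ (∀ t, φ t ∈ G) ∧ p = (A u, A e)}

/-- The group `G` of linear isometries is infinitesimally transitive on the product of the unit
spheres of `F` and of its orthogonal complement: at every pair `(u, e)` of unit vectors of `F` and
of the complement the velocities of the one-parameter groups in `G` span a space that contains the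
tangent space of the product of the two spheres. -/
def InfTrans (F : Submodule ℝ E) (G : Subgroup (E ≃ₗᵢ[ℝ] E)) : Prop :=
  ∀ u ∈ F, ∀ e ∈ Fᗮ, ‖u‖ = 1 → ‖e‖ = 1 → ∀ v ∈ F, ∀ w ∈ Fᗮ, inner ℝ u v = (0 : ℝ) →
    inner ℝ e w = (0 : ℝ) → (v, w) ∈ Submodule.span ℝ (Vel G u e)

/-- `L` is invariant under the special orthogonal group of the subspace `K` or, for some complex
structure `J` of `K`, under the unitary group of `K`, both groups acting on `E` with trivial action
on the orthogonal complement of `K`. -/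
def FactorInv (K : Submodule ℝ E) (L : Set (E × E)) : Prop :=
  (∀ g : E ≃ₗᵢ[ℝ] E, (∀ x ∈ Kᗮ, g x = x) → LinearMap.det (g.toLinearEquiv : E →ₗ[ℝ] E) = 1 →
    ∀ z ∈ L, (g z.1, g z.2) ∈ L) ∨
  ∃ J : E ≃ₗᵢ[ℝ] E, (∀ x ∈ K, J x ∈ K ∧ J (J x) = -x) ∧
    ∀ g : E ≃ₗᵢ[ℝ] E, (∀ x ∈ Kᗮ, g x = x) → (∀ x ∈ K, g (J x) = J (g x)) →
      ∀ z ∈ L, (g z.1, g z.2) ∈ L

end Vale.Agent.P220.R2.H562
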