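import Vale.Agent.P220.R2.H180.Fam

/-!
# The shrinking family of an arc from `1` to `-1`, with two square roots
-/

open Set Filter Topology
open scoped ContDiff

namespace Vale.Agent.P220.R2.H562

open H180

/-- The family of arcs from `c(0)` to `c(s)`, normalized, and square roots of
`(1 - C) / (2 τ)` and `(1 + C) / (2 (1 - τ))`. -/
structure IsFam2 (c : ℝ → ℂ) (C A B : ℝ × ℝ → ℂ) : Prop where
  hC : ContDiff ℝ ∞ C
  hA : ContDiff ℝ ∞ A
  hB : ContDiff ℝ ∞ B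
  relA : ∀ s, ∀ τ ∈ Icc (0 : ℝ) 1, 1 - C (s, τ) = 2 * τ * A (s, τ) ^ 2
  relB : ∀ s, ∀ τ ∈ Icc (0 : ℝ) 1, 1 + C (s, τ) = 2 * (1 - τ) * B (s, τ) ^ 2
  Ane : ∀ s, ∀ τ ∈ Icc (0 : ℝ) 1, A (s, τ) ≠ 0
  Bne : ∀ s, ∀ τ ∈ Icc (0 : ℝ) 1, B (s, τ) ≠ 0
  inj : ∀ s, ∀ x ∈ Icc (0 : ℝ) 1, ∀ y ∈ Icc (0 : ℝ) 1, C (s, x) = C (s, y) → x = y
  imm : ∀ s, ∀ x ∈ Icc (0 : ℝ) 1, deriv (fun t => C (s, t)) x ≠ 0
  A0 : ∀ τ ∈ Icc (0 : ℝ) 1, A (0, τ) = 1
  B0 : ∀ τ ∈ Icc (0 : ℝ) 1, B (0, τ) = 1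
  C1 : ∀ τ, C (1, τ) = c τ

/-- a continuous square root of one that is one at zero is one -/
theorem root_one {f : ℝ → ℂ} (hf : Continuous f) (h0 : f 0 = 1)
    (h : ∀ τ ∈ Icc (0 : ℝ) 1, f τ ^ 2 = 1) : ∀ τ ∈ Icc (0 : ℝ) 1, f τ = 1 := by
  intro τ hτ
  rcases sq_eq_sq_iff_eq_or_eq_neg.1 ((h τ hτ).trans (one_pow 2).symm) with h1 | h1
  · exact h1
  · exfalso
    have hcont : Continuous fun t : ℝ => (f t).re := Complex.continuous_re.comp hf
    have hiv := intermediate_value_Icc' hτ.1 hcont.continuousOn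
    have hmem : (0 : ℝ) ∈ Icc (f τ).re (f 0).re := by
      rw [h0, h1]
      simp
    obtain ⟨t, ht, ht0⟩ := hiv hmem
    beta_reduce at ht0
    have h3 := h t ⟨ht.1, ht.2.trans hτ.2⟩
    rcases sq_eq_sq_iff_eq_or_eq_neg.1 (h3.trans (one_pow 2).symm) with h4 | h4
    · rw [h4] at ht0
      simp at ht0
    · rw [h4] at ht0
      simp at ht0

theorem exists_fam2 {c : ℝ → ℂ} (h : IsArc c) : ∃ C A B, IsFam2 c C A B := by
  set β : ℝ → ℝ := Real.smoothTransition with hβ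
  have hβs : ContDiff ℝ ∞ β := Real.smoothTransition.contDiff
  have hβ1 : ∀ s, β s ∈ Icc (0 : ℝ) 1 := fun s =>
    ⟨Real.smoothTransition.nonneg _, Real.smoothTransition.le_one _⟩
  have hmul : ∀ s : ℝ, ∀ τ ∈ Icc (0 : ℝ) 1, ∀ β' ∈ Icc (0 : ℝ) 1, β' * τ ∈ Icc (0 : ℝ) 1 :=
    fun s τ hτ β' hβ' => ⟨mul_nonneg hβ'.1 hτ.1, mul_le_one₀ hβ'.2 hτ.1 hτ.2⟩
  have h0 : (0 : ℝ) ∈ Icc (0 : ℝ) 1 := by simp
  have hΔ := hc_smooth h.smooth
  have hne : ∀ s, hc c (0, β s) ≠ 0 := fun s => h.hc_ne h0 (hβ1 s)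
  -- the first square root
  set N1 : ℝ × ℝ → ℂ := fun x => hc c (0, x.1 * x.2) * hc c (0, x.1) with hN1
  have hN1s : ContDiff ℝ ∞ N1 :=
    (hΔ.comp (contDiff_const.prodMk (contDiff_fst.mul contDiff_snd))).mul
      (hΔ.comp (contDiff_const.prodMk contDiff_fst))
  have hN1ne : ∀ x ∈ Icc (0 : ℝ) 1 ×ˢ Icc (0 : ℝ) 1, N1 x ≠ 0 := by
    intro x hx
    have h1 := hmul 0 _ hx.2 _ hx.1
    exact mul_ne_zero (h.hc_ne h0 h1) (h.hc_ne h0 hx.1)
  obtain ⟨n1, hn1, hn10, hn12⟩ := exists_sqrt hN1s hN1ne (n₀ := hc c (0, 0)) (by simp [hN1, sq])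
  -- the second square root
  set N2 : ℝ × ℝ → ℂ := fun x => hc c (x.1 * x.2, x.1) * hc c (0, x.1) with hN2
  have hN2s : ContDiff ℝ ∞ N2 :=
    (hΔ.comp ((contDiff_fst.mul contDiff_snd).prodMk contDiff_fst)).mul
      (hΔ.comp (contDiff_const.prodMk contDiff_fst))
  have hN2ne : ∀ x ∈ Icc (0 : ℝ) 1 ×ˢ Icc (0 : ℝ) 1, N2 x ≠ 0 := by
    intro x hx
    have h1 := hmul 0 _ hx.2 _ hx.1
    exact mul_ne_zero (h.hc_ne h1 hx.1) (h.hc_ne h0 hx.1)
  obtain ⟨n2, hn2, hn20, hn22⟩ := exists_sqrt hN2s hN2ne (n₀ := hc c (0, 0)) (by simp [hN2, sq])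
  set D : ℝ × ℝ → ℂ := fun x => (hc c (0, β x.1))⁻¹ with hD
  have hDs : ContDiff ℝ ∞ D :=
    (hΔ.comp (contDiff_const.prodMk (hβs.comp contDiff_fst))).inv (fun x => hne x.1)
  set C : ℝ × ℝ → ℂ := fun x => 1 - 2 * (x.2 : ℂ) * hc c (0, β x.1 * x.2) * D x with hC
  set A : ℝ × ℝ → ℂ := fun x => n1 (β x.1, x.2) * D x with hA
  set B : ℝ × ℝ → ℂ := fun x => n2 (β x.1, x.2) * D x with hB
  have hCs : ContDiff ℝ ∞ C := by
    have h1 : ContDiff ℝ ∞ fun x : ℝ × ℝ => (x.2 : ℂ) :=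
      Complex.ofRealCLM.contDiff.comp contDiff_snd
    have h2 : ContDiff ℝ ∞ fun x : ℝ × ℝ => hc c (0, β x.1 * x.2) :=
      hΔ.comp (contDiff_const.prodMk ((hβs.comp contDiff_fst).mul contDiff_snd))
    exact contDiff_const.sub (((contDiff_const.mul h1).mul h2).mul hDs)
  have hAs : ContDiff ℝ ∞ A :=
    (hn1.comp ((hβs.comp contDiff_fst).prodMk contDiff_snd)).mul hDs
  have hBs : ContDiff ℝ ∞ B :=
    (hn2.comp ((hβs.comp contDiff_fst).prodMk contDiff_snd)).mul hDs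
  have hdiff : ∀ s x y, C (s, x) = C (s, y) + ((x - y : ℝ) : ℂ) * (-2 * hc c (β s * y, β s * x) *
      D (s, 0)) := by
    intro s x y
    have h1 := hc_key h.smooth (β s) x y
    simp only [hC, hD]
    push_cast
    linear_combination (-2 * (hc c (0, β s))⁻¹) * h1
  have hD1 : ∀ s t, hc c (0, β s) * D (s, t) = 1 := fun s t => mul_inv_cancel₀ (hne s)
  have hDne : ∀ s t, D (s, t) ≠ 0 := fun s t => inv_ne_zero (hne s)
  have hA2 : ∀ s, ∀ τ ∈ Icc (0 : ℝ) 1, A (s, τ) ^ 2 =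
      hc c (0, β s * τ) * hc c (0, β s) * D (s, τ) ^ 2 := by
    intro s τ hτ
    simp only [hA, mul_pow]
    rw [hn12 (β s, τ) ⟨hβ1 s, hτ⟩]
  have hB2 : ∀ s, ∀ τ ∈ Icc (0 : ℝ) 1, B (s, τ) ^ 2 =
      hc c (β s * τ, β s) * hc c (0, β s) * D (s, τ) ^ 2 := by
    intro s τ hτ
    simp only [hB, mul_pow]
    rw [hn22 (β s, τ) ⟨hβ1 s, hτ⟩]
  have hβ0 : β 0 = 0 := Real.smoothTransition.zero
  refine ⟨C, A, B, hCs, hAs, hBs, ?_, ?_, ?_, ?_, ?_, ?_, ?_, ?_, ?_⟩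
  · intro s τ hτ
    rw [hA2 s τ hτ]
    have h2 := hD1 s τ
    have h3 : C (s, τ) = 1 - 2 * (τ : ℂ) * hc c (0, β s * τ) * D (s, τ) := rfl
    rw [h3]
    linear_combination (-2 * (τ : ℂ) * hc c (0, β s * τ) * D (s, τ)) * h2
  · intro s τ hτ
    rw [hB2 s τ hτ]
    have h1 := hc_key h.smooth (β s) 1 τ
    have h2 := hD1 s τ
    rw [mul_one] at h1
    have h3 : C (s, τ) = 1 - 2 * (τ : ℂ) * hc c (0, β s * τ) * D (s, τ) := rfl
    rw [h3]
    push_cast at h1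
    set X := hc c (0, β s * τ)
    set Y := hc c (β s * τ, β s)
    set Z := hc c (0, β s)
    set d := D (s, τ)
    linear_combination (-2 - 2 * (1 - (τ : ℂ)) * Y * d) * h2 + 2 * d * h1
  · intro s τ hτ h1
    have h2 := hA2 s τ hτ
    rw [h1] at h2
    have h3 : hc c (0, β s * τ) * hc c (0, β s) ≠ 0 := hN1ne (β s, τ) ⟨hβ1 s, hτ⟩
    have h4 := mul_ne_zero h3 (pow_ne_zero 2 (hDne s τ))
    rw [← h2] at h4
    simp at h4
  · intro s τ hτ h1
    have h2 := hB2 s τ hτ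
    rw [h1] at h2
    have h3 : hc c (β s * τ, β s) * hc c (0, β s) ≠ 0 := hN2ne (β s, τ) ⟨hβ1 s, hτ⟩
    have h4 := mul_ne_zero h3 (pow_ne_zero 2 (hDne s τ))
    rw [← h2] at h4
    simp at h4
  · intro s x hx y hy h1
    have h2 := hdiff s x y
    rw [h1, left_eq_add, mul_eq_zero] at h2
    rcases h2 with h2 | h2
    · have : x - y = 0 := by exact_mod_cast h2
      linarith
    · exfalso
      have h3 := h.hc_ne (hmul s y hy _ (hβ1 s)) (hmul s x hx _ (hβ1 s))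
      exact mul_ne_zero (mul_ne_zero (by norm_num) h3) (hDne s 0) h2
  · intro s x hx
    have h1 : HasDerivAt (fun t : ℝ => C (s, x) + ((t - x : ℝ) : ℂ) *
        (-2 * hc c (β s * x, β s * t) * D (s, 0))) (-2 * hc c (β s * x, β s * x) * D (s, 0)) x := by
      have d1 : HasDerivAt (fun t : ℝ => ((t - x : ℝ) : ℂ)) 1 x := by
        have := ((hasDerivAt_id x).sub_const x).ofReal_comp
        simpa using this
      have d2 : DifferentiableAt ℝ (fun t : ℝ => -2 * hc c (β s * x, β s * t) * D (s, 0)) x := by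
        have : ContDiff ℝ ∞ (fun t : ℝ => -2 * hc c (β s * x, β s * t) * D (s, 0)) :=
          (contDiff_const.mul (hΔ.comp (contDiff_const.prodMk
            (contDiff_const.mul contDiff_id)))).mul contDiff_const
        exact this.differentiable (by simp) x
      have d3 := (d1.mul d2.hasDerivAt).const_add (C (s, x))
      simpa using d3
    have h2 : (fun t => C (s, t)) = fun t : ℝ => C (s, x) + ((t - x : ℝ) : ℂ) *
        (-2 * hc c (β s * x, β s * t) * D (s, 0)) := funext fun t => hdiff s t x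
    rw [h2, h1.deriv]
    have h3 := h.hc_ne (hmul s x hx _ (hβ1 s)) (hmul s x hx _ (hβ1 s))
    exact mul_ne_zero (mul_ne_zero (by norm_num) h3) (hDne s 0)
  · refine root_one (f := fun τ => A (0, τ)) (hAs.continuous.comp (by fun_prop)) ?_ ?_
    · have : A (0, 0) = n1 (β 0, 0) * D (0, 0) := rfl
      beta_reduce
      rw [this, hβ0, hn10]
      have h2 := hD1 0 0
      rwa [hβ0] at h2
    · intro τ hτ
      have h1 := hA2 0 τ hτ
      have h2 := hD1 0 τ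
      rw [hβ0] at h1 h2
      simp only [zero_mul] at h1
      beta_reduce
      rw [h1]
      linear_combination (hc c (0, 0) * D (0, τ) + 1) * h2
  · refine root_one (f := fun τ => B (0, τ)) (hBs.continuous.comp (by fun_prop)) ?_ ?_
    · have : B (0, 0) = n2 (β 0, 0) * D (0, 0) := rfl
      beta_reduce
      rw [this, hβ0, hn20]
      have h2 := hD1 0 0
      rwa [hβ0] at h2
    · intro τ hτ
      have h1 := hB2 0 τ hτ
      have h2 := hD1 0 τ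
      rw [hβ0] at h1 h2
      simp only [zero_mul] at h1
      beta_reduce
      rw [h1]
      linear_combination (hc c (0, 0) * D (0, τ) + 1) * h2
  · intro τ
    have hβ1' : β 1 = 1 := Real.smoothTransition.one
    have h2 := hD1 1 τ
    have h3 : C (1, τ) = 1 - 2 * (τ : ℂ) * hc c (0, β 1 * τ) * D (1, τ) := rfl
    rw [h3]
    rw [hβ1', one_mul]
    rw [hβ1'] at h2
    have h4 := hc_mul h.smooth 0 1
    have h5 := hc_mul h.smooth 0 τ
    rw [h.zero, h.one] at h4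
    rw [h.zero] at h5
    push_cast at h4 h5
    have h6 : hc c (0, 1) = -2 := by linear_combination -h4
    rw [h6] at h2
    linear_combination -h5 + (τ : ℂ) * hc c (0, τ) * h2

end Vale.Agent.P220.R2.H562
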